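import Vale.Agent.P062.All

namespace Vale.Agent.Results.P062.Snaky

/-- The Snaky hexomino. -/
def snaky : Finset (ℤ × ℤ) := {(0, 0), (1, 0), (2, 0), (3, 0), (3, 1), (4, 1)}

/-- The eight signed permutation matrices, as maps of the grid. -/
def IsSignedPerm (R : ℤ × ℤ → ℤ × ℤ) : Prop :=
  ∃ a b : ℤ, (a = 1 ∨ a = -1) ∧ (b = 1 ∨ b = -1) ∧
    ((R = fun c => (a * c.1, b * c.2)) ∨ (R = fun c => (a * c.2, b * c.1)))

/-- The set `M` contains every cell of some allowed copy `t + R(S)`. -/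
def OwnsCopy (M : Set (ℤ × ℤ)) : Prop :=
  ∃ (t : ℤ × ℤ) (R : ℤ × ℤ → ℤ × ℤ), IsSignedPerm R ∧ ∀ c ∈ snaky, t + R c ∈ M

/-- Maker's move number `n` (from 0) under the strategy `σ`, which sees only the list of
Breaker's earlier moves `β 0, …, β (n - 1)`. -/
def makerMove (σ : List (ℤ × ℤ) → ℤ × ℤ) (β : ℕ → ℤ × ℤ) (n : ℕ) : ℤ × ℤ :=
  σ ((List.range n).map β)

/-- Maker's move number `n` claims a cell that nobody has claimed before. -/
def MakerLegal (σ : List (ℤ × ℤ) → ℤ × ℤ) (β : ℕ → ℤ × ℤ) (n : ℕ) : Prop :=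
  ∀ i < n, makerMove σ β n ≠ makerMove σ β i ∧ makerMove σ β n ≠ β i

/-- Breaker's move number `n`, made after Maker's move number `n`, claims a cell that nobody has
claimed before. -/
def BreakerLegal (σ : List (ℤ × ℤ) → ℤ × ℤ) (β : ℕ → ℤ × ℤ) (n : ℕ) : Prop :=
  (∀ i ≤ n, β n ≠ makerMove σ β i) ∧ ∀ i < n, β n ≠ β i

open Vale.Agent.P062

open Classical in
noncomputable def mv (n : ℕ) (M B : Finset (ℤ × ℤ)) : ℤ × ℤ :=
  if h : ∃ p, p ∉ M ∧ p ∉ B ∧ ∀ b, b ∉ insert p M → b ∉ B → W n (insert p M) (insert b B)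
  then h.choose else (Infinite.exists_notMem_finset (M ∪ B)).choose

lemma mv_free (n M B) : mv n M B ∉ M ∧ mv n M B ∉ B := by
  unfold mv
  split_ifs with h
  · exact ⟨h.choose_spec.1, h.choose_spec.2.1⟩
  · have := (Infinite.exists_notMem_finset (M ∪ B)).choose_spec
    rwa [Finset.mem_union, not_or] at this

lemma mv_win (n M B) (h : W (n + 1) M B) (b) (h1 : b ∉ insert (mv n M B) M) (h2 : b ∉ B) :
    W n (insert (mv n M B) M) (insert b B) := by
  rcases h with h | h
  · refine W_mono (Nat.zero_le n) ?_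
    obtain ⟨t, R, hR, h⟩ := h
    exact ⟨t, R, hR, fun c hc => by simpa using Or.inr (h c hc)⟩
  · unfold mv at h1 ⊢
    rw [dif_pos h] at h1 ⊢
    exact h.choose_spec.2.2 b h1 h2

noncomputable def st : List (ℤ × ℤ) → Finset (ℤ × ℤ)
  | [] => ∅
  | _ :: l => insert (mv (42 - l.length) (st l) l.toFinset) (st l)

noncomputable def strat (l : List (ℤ × ℤ)) : ℤ × ℤ :=
  mv (42 - l.length) (st l.reverse) l.toFinset

theorem result : ∃ σ : List (ℤ × ℤ) → ℤ × ℤ, ∀ β : ℕ → ℤ × ℤ,
    (∀ n, (∀ k < n, BreakerLegal σ β k) → MakerLegal σ β n) ∧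
    ((∀ k < 42, BreakerLegal σ β k) → OwnsCopy {c | ∃ i < 43, c = makerMove σ β i}) := by
  refine ⟨strat, fun β => ?_⟩
  let M : ℕ → Finset (ℤ × ℤ) := fun n => st ((List.range n).map β).reverse
  let B : ℕ → Finset (ℤ × ℤ) := fun n => ((List.range n).map β).toFinset
  have hm : ∀ n, makerMove strat β n = mv (42 - n) (M n) (B n) := by
    intro n; simp [makerMove, strat, M, B]
  have hM : ∀ n, M (n + 1) = insert (makerMove strat β n) (M n) := by
    intro n; rw [hm]; simp [M, B, List.range_succ, st]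
  have hB : ∀ n, B (n + 1) = insert (β n) (B n) := by
    intro n; simp [B, List.range_succ]
  have hM' : ∀ n c, c ∈ M n ↔ ∃ i < n, c = makerMove strat β i := by
    intro n c
    induction n with
    | zero => simp [M, st]
    | succ n ih =>
      rw [hM, Finset.mem_insert, ih]
      constructor
      · rintro (h | ⟨i, hi, h⟩)
        · exact ⟨n, by omega, h⟩
        · exact ⟨i, by omega, h⟩
      · rintro ⟨i, hi, h⟩
        rcases Nat.lt_succ_iff_lt_or_eq.mp hi with hi | rfl
        · exact Or.inr ⟨i, hi, h⟩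
        · exact Or.inl h
  have hB' : ∀ n c, c ∈ B n ↔ ∃ i < n, c = β i := by
    intro n c; simp [B, eq_comm]
  constructor
  · intro n _ i hi
    have := mv_free (42 - n) (M n) (B n)
    rw [← hm, hM', hB'] at this
    exact ⟨fun e => this.1 ⟨i, hi, e⟩, fun e => this.2 ⟨i, hi, e⟩⟩
  · intro hl
    have key : ∀ n ≤ 42, W (43 - n) (M n) (B n) := by
      intro n
      induction n with
      | zero => intro _; simpa [M, B, st] using win
      | succ n ih =>
        intro hn
        have h1 := ih (by omega)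
        rw [show 43 - n = (42 - n) + 1 by omega] at h1
        rw [show 43 - (n + 1) = 42 - n by omega, hM, hB, hm]
        refine mv_win _ _ _ h1 _ ?_ ?_
        · rw [← hm, ← hM, hM']
          rintro ⟨i, hi, e⟩
          exact (hl n (by omega)).1 i (by omega) e
        · rw [hB']
          rintro ⟨i, hi, e⟩
          exact (hl n (by omega)).2 i hi e
    obtain ⟨b, hb⟩ := Infinite.exists_notMem_finset (M 43 ∪ B 42)
    rw [Finset.mem_union, not_or, hM, hm] at hb
    have h2 := mv_win 0 _ _ (key 42 le_rfl) b hb.1 hb.2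
    rw [← hm 42, ← hM] at h2
    obtain ⟨t, R, hR, h⟩ := h2
    exact ⟨t, R, hR, fun c hc => (hM' 43 _).mp (h c hc)⟩

end Vale.Agent.Results.P062.Snaky
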